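import Vale.Agent.Lib.P309.Counting

namespace Vale.Agent.Lib.P309

open MeasureTheory ProbabilityTheory Metric Set
open scoped ENNReal Pointwise

/-- chord is at most arc: unit vectors at angle at most `ε` are at distance at most `ε` -/
lemma norm_sub_le_of_angle_le {d : ℕ} (v s : Sph d) {ε : ℝ}
    (h : InnerProductGeometry.angle (v : Vec d) (s : Vec d) ≤ ε) :
    ‖(s : Vec d) - (v : Vec d)‖ ≤ ε := by
  have hv : ‖(v : Vec d)‖ = 1 := by simp
  have hs : ‖(s : Vec d)‖ = 1 := by simp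
  set θ := InnerProductGeometry.angle (v : Vec d) (s : Vec d) with hθ
  have hθ0 : 0 ≤ θ := InnerProductGeometry.angle_nonneg _ _
  have hcos : Real.cos θ = inner ℝ (v : Vec d) (s : Vec d) := by
    rw [hθ, InnerProductGeometry.cos_angle, hv, hs]
    simp
  have h1 : ‖(s : Vec d) - (v : Vec d)‖ ^ 2 = 2 - 2 * Real.cos θ := by
    rw [norm_sub_sq_real, hv, hs, hcos, real_inner_comm]
    ring
  have h2 : 1 - θ ^ 2 / 2 ≤ Real.cos θ := Real.one_sub_sq_div_two_le_cos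
  have h3 : ‖(s : Vec d) - (v : Vec d)‖ ^ 2 ≤ θ ^ 2 := by rw [h1]; linarith
  have h4 : ‖(s : Vec d) - (v : Vec d)‖ ≤ θ := by
    exact le_of_sq_le_sq h3 hθ0
  linarith

/-- the cone over a cap of angular radius `ε ≤ 1` is covered by a sequence of small balls -/
lemma cone_subset_iUnion {d : ℕ} (v : Sph d) {ε : ℝ} (hε : 0 < ε) (hε1 : ε ≤ 1) :
    Ioo (0 : ℝ) 1 • ((↑) '' {s : Sph d |
        InnerProductGeometry.angle (v : Vec d) (s : Vec d) ≤ ε} : Set (Vec d))
      ⊆ ⋃ k : ℕ, closedBall (((1 + ε)⁻¹ ^ (k + 1)) • (v : Vec d))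
          (3 * ε * (1 + ε)⁻¹ ^ (k + 1)) := by
  rintro x ⟨r, hr, y, ⟨s, hs, rfl⟩, rfl⟩
  have hv : ‖(v : Vec d)‖ = 1 := by simp
  have hsn : ‖(s : Vec d)‖ = 1 := by simp
  have hsv : ‖(s : Vec d) - (v : Vec d)‖ ≤ ε := norm_sub_le_of_angle_le v s hs
  obtain ⟨hr0, hr1⟩ := hr
  have h1ε : (1 : ℝ) < 1 + ε := by linarith
  have hinv : (1 : ℝ) ≤ r⁻¹ := (one_le_inv₀ hr0).2 hr1.le
  obtain ⟨n, hn1, hn2⟩ := exists_nat_pow_near hinv h1ε
  simp only [mem_iUnion]
  refine ⟨n, ?_⟩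
  set ρ := (1 + ε)⁻¹ ^ (n + 1) with hρ
  have hpos : (0 : ℝ) < (1 + ε) ^ (n + 1) := by positivity
  have hρpos : 0 < ρ := by rw [hρ]; positivity
  have hρeq : ρ = ((1 + ε) ^ (n + 1))⁻¹ := by rw [hρ, inv_pow]
  -- ρ < r ≤ ρ (1 + ε)
  have hρr : ρ < r := by
    rw [hρeq]
    have := (inv_lt_comm₀ hr0 hpos).1 hn2
    exact this
  have hrρ : r ≤ ρ * (1 + ε) := by
    have hpn : (0 : ℝ) < (1 + ε) ^ n := by positivity
    have h5 : r ≤ ((1 + ε) ^ n)⁻¹ := by
      have := (le_inv_comm₀ hpn hr0).1 hn1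
      exact this
    have h6 : ρ * (1 + ε) = ((1 + ε) ^ n)⁻¹ := by
      rw [hρeq, pow_succ]
      field_simp
    rw [h6]
    exact h5
  rw [mem_closedBall, dist_eq_norm]
  have hsplit : r • (s : Vec d) - ρ • (v : Vec d)
      = r • ((s : Vec d) - (v : Vec d)) + (r - ρ) • (v : Vec d) := by
    rw [smul_sub, sub_smul]
    abel
  rw [hsplit]
  calc ‖r • ((s : Vec d) - (v : Vec d)) + (r - ρ) • (v : Vec d)‖
      ≤ ‖r • ((s : Vec d) - (v : Vec d))‖ + ‖(r - ρ) • (v : Vec d)‖ := norm_add_le _ _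
    _ = r * ‖(s : Vec d) - (v : Vec d)‖ + (r - ρ) := by
        rw [norm_smul, norm_smul, hv, Real.norm_of_nonneg hr0.le,
          Real.norm_of_nonneg (by linarith), mul_one]
    _ ≤ r * ε + (r - ρ) := by gcongr
    _ ≤ 3 * ε * ρ := by nlinarith

lemma measurableSet_cap {d : ℕ} (v : Sph d) (ε : ℝ) :
    MeasurableSet {s : Sph d | InnerProductGeometry.angle (v : Vec d) (s : Vec d) ≤ ε} := by
  have h := measurableSet_anglePairs d ε
  exact measurable_prodMk_right (y := v) h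

/-- explicit bound on the uniform measure of a cap of angular radius `ε ≤ 1` -/
theorem uniformSphere_cap_le (d : ℕ) (hd : 1 ≤ d) (ε : ℝ) (hε : 0 < ε) (hε1 : ε ≤ 1)
    (v : Sph d) :
    uniformSphere d {s : Sph d | InnerProductGeometry.angle (v : Vec d) (s : Vec d) ≤ ε}
      ≤ ENNReal.ofReal (3 ^ d * ε ^ (d - 1) / d) := by
  set A : Set (Sph d) := {s : Sph d | InnerProductGeometry.angle (v : Vec d) (s : Vec d) ≤ ε}
    with hA
  have hAm : MeasurableSet A := measurableSet_cap v ε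
  have hfin : Module.finrank ℝ (Vec d) = d := finrank_euclideanSpace_fin
  set μ : Measure (Vec d) := volume with hμ
  set m : ℝ≥0∞ := μ (ball (0 : Vec d) 1) with hm
  have hm0 : m ≠ 0 := (measure_ball_pos μ (0 : Vec d) one_pos).ne'
  have hmtop : m ≠ ⊤ := measure_ball_lt_top.ne
  set q : ℝ := (1 + ε)⁻¹ ^ d with hq
  have h1ε : (0 : ℝ) < 1 + ε := by linarith
  have hq0 : 0 ≤ q := by rw [hq]; positivity
  have hbern : 1 + (d : ℝ) * ε ≤ (1 + ε) ^ d := one_add_mul_le_pow (by linarith) d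
  have hdpos : (0 : ℝ) < (d : ℝ) := by exact_mod_cast hd
  have hpowpos : (0 : ℝ) < (1 + ε) ^ d := by positivity
  have hqeq : q = ((1 + ε) ^ d)⁻¹ := by rw [hq, inv_pow]
  have hq1 : q < 1 := by
    rw [hqeq]
    apply inv_lt_one_of_one_lt₀
    nlinarith
  -- measure of the cone
  have hcone : μ (Ioo (0 : ℝ) 1 • ((↑) '' A : Set (Vec d)))
      ≤ ENNReal.ofReal ((3 * ε) ^ d / (d * ε)) * m := by
    calc μ (Ioo (0 : ℝ) 1 • ((↑) '' A : Set (Vec d)))
        ≤ μ (⋃ k : ℕ, closedBall (((1 + ε)⁻¹ ^ (k + 1)) • (v : Vec d))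
            (3 * ε * (1 + ε)⁻¹ ^ (k + 1))) := measure_mono (cone_subset_iUnion v hε hε1)
      _ ≤ ∑' k : ℕ, μ (closedBall (((1 + ε)⁻¹ ^ (k + 1)) • (v : Vec d))
            (3 * ε * (1 + ε)⁻¹ ^ (k + 1))) := measure_iUnion_le _
      _ = ∑' k : ℕ, ENNReal.ofReal ((3 * ε) ^ d * q ^ (k + 1)) * m := by
          congr 1
          funext k
          rw [Measure.addHaar_closedBall μ _ (by positivity), hfin]
          congr 2
          rw [hq, mul_pow, ← pow_mul, ← pow_mul, mul_comm d (k + 1)]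
      _ = (∑' k : ℕ, ENNReal.ofReal ((3 * ε) ^ d * q ^ (k + 1))) * m := ENNReal.tsum_mul_right
      _ ≤ ENNReal.ofReal ((3 * ε) ^ d / (d * ε)) * m := by
          gcongr
          have hsum : Summable (fun k : ℕ => (3 * ε) ^ d * q ^ (k + 1)) := by
            have := (summable_geometric_of_lt_one hq0 hq1).mul_left ((3 * ε) ^ d * q)
            refine this.congr ?_
            intro k
            rw [pow_succ]
            ring
          rw [← ENNReal.ofReal_tsum_of_nonneg (fun k => by positivity) hsum]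
          apply ENNReal.ofReal_le_ofReal
          have htsum : ∑' k : ℕ, (3 * ε) ^ d * q ^ (k + 1) = (3 * ε) ^ d * (q * (1 - q)⁻¹) := by
            rw [tsum_mul_left]
            congr 1
            have : (fun k : ℕ => q ^ (k + 1)) = fun k : ℕ => q * q ^ k := by
              funext k
              rw [pow_succ]
              ring
            rw [this, tsum_mul_left, tsum_geometric_of_lt_one hq0 hq1]
          rw [htsum, div_eq_mul_inv]
          apply mul_le_mul_of_nonneg_left _ (by positivity)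
          have h1q : 0 < 1 - q := by linarith
          rw [← div_eq_mul_inv, div_le_iff₀ h1q]
          have hdε : 0 < (d : ℝ) * ε := by positivity
          rw [hqeq]
          have hkey : ((d : ℝ) * ε)⁻¹ * (1 - ((1 + ε) ^ d)⁻¹) - ((1 + ε) ^ d)⁻¹
              = ((1 + ε) ^ d - 1 - (d : ℝ) * ε) / ((d : ℝ) * ε * (1 + ε) ^ d) := by
            field_simp
          have : 0 ≤ ((d : ℝ) * ε)⁻¹ * (1 - ((1 + ε) ^ d)⁻¹) - ((1 + ε) ^ d)⁻¹ := by
            rw [hkey]
            apply div_nonneg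
            · linarith
            · positivity
          linarith
  -- put things together
  have hts : μ.toSphere A = (d : ℝ≥0∞) * μ (Ioo (0 : ℝ) 1 • ((↑) '' A : Set (Vec d))) := by
    rw [Measure.toSphere_apply' μ hAm, hfin]
  have htu : μ.toSphere (univ : Set (Sph d)) = (d : ℝ≥0∞) * m := by
    rw [Measure.toSphere_apply_univ, hfin]
  have hd0 : (d : ℝ≥0∞) ≠ 0 := by
    simp only [ne_eq, Nat.cast_eq_zero]
    omega
  have hdtop : (d : ℝ≥0∞) ≠ ⊤ := ENNReal.natCast_ne_top d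
  have hdm0 : (d : ℝ≥0∞) * m ≠ 0 := mul_ne_zero hd0 hm0
  have hdmtop : (d : ℝ≥0∞) * m ≠ ⊤ := ENNReal.mul_ne_top hdtop hmtop
  have hreal : (3 * ε) ^ d / (d * ε) = 3 ^ d * ε ^ (d - 1) / d := by
    obtain ⟨e, rfl⟩ : ∃ e, d = e + 1 := ⟨d - 1, by omega⟩
    simp only [Nat.add_sub_cancel]
    rw [mul_pow, pow_succ ε e]
    field_simp
  unfold uniformSphere
  rw [Measure.smul_apply, smul_eq_mul, htu, hts]
  calc ((d : ℝ≥0∞) * m)⁻¹ * ((d : ℝ≥0∞) * μ (Ioo (0 : ℝ) 1 • ((↑) '' A : Set (Vec d))))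
      ≤ ((d : ℝ≥0∞) * m)⁻¹ * ((d : ℝ≥0∞) * (ENNReal.ofReal ((3 * ε) ^ d / (d * ε)) * m)) := by
        gcongr
    _ = (((d : ℝ≥0∞) * m)⁻¹ * ((d : ℝ≥0∞) * m)) * ENNReal.ofReal ((3 * ε) ^ d / (d * ε)) := by
        ring
    _ = ENNReal.ofReal (3 ^ d * ε ^ (d - 1) / d) := by
        rw [ENNReal.inv_mul_cancel hdm0 hdmtop, one_mul, hreal]

end Vale.Agent.Lib.P309
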