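import Vale.Agent.Lib.P309.Model

namespace Vale.Agent.Lib.P309

open MeasureTheory ProbabilityTheory
open scoped ENNReal

variable {d M : ℕ}

lemma Learner.runOn_isProb (L : Learner d M) (z : ℕ → Vec d × ℝ) (t : ℕ) :
    IsProbabilityMeasure (L.runOn z t) := by
  induction t with
  | zero =>
    have := L.init_prob
    unfold Learner.runOn
    exact Measure.isProbabilityMeasure_map (measurable_of_countable _).aemeasurable
  | succ t ih =>
    have := ih
    have := L.step_markov t
    constructor
    rw [Learner.runOn, Measure.bind_apply MeasurableSet.univ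
      (measurable_of_countable _).aemeasurable]
    have h1 : ∀ p : Fin (2 ^ M) × Bool,
        (if p.2 then Measure.dirac p else L.step t (p.1, z t)) Set.univ = 1 := by
      intro p
      split_ifs <;> simp
    simp [h1]

lemma Learner.outputLaw_le (L : Learner d M) (T : ℕ) (z : ℕ → Vec d × ℝ) (A : Set (Sph d))
    (hA : MeasurableSet A) : L.outputLaw T z A ≤ ∑ j, L.out j A := by
  have := L.runOn_isProb z T
  have : IsProbabilityMeasure ((L.runOn z T).map Prod.fst) :=
    Measure.isProbabilityMeasure_map measurable_fst.aemeasurable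
  unfold Learner.outputLaw
  rw [Measure.bind_apply hA L.out.measurable.aemeasurable, lintegral_fintype]
  apply Finset.sum_le_sum
  intro j _
  calc L.out j A * ((L.runOn z T).map Prod.fst) {j} ≤ L.out j A * 1 := by
        gcongr
        exact prob_le_one
    _ = L.out j A := mul_one _

lemma uniformSphere_univ_le (d : ℕ) : uniformSphere d Set.univ ≤ 1 := by
  unfold uniformSphere
  rw [Measure.smul_apply, smul_eq_mul]
  exact ENNReal.inv_mul_le_one _

instance (d : ℕ) : IsFiniteMeasure (uniformSphere d) :=
  ⟨lt_of_le_of_lt (uniformSphere_univ_le d) ENNReal.one_lt_top⟩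

lemma measurableSet_anglePairs (d : ℕ) (ε : ℝ) :
    MeasurableSet {q : Sph d × Sph d |
      InnerProductGeometry.angle (q.2 : Vec d) (q.1 : Vec d) ≤ ε} := by
  apply measurableSet_le _ measurable_const
  unfold InnerProductGeometry.angle
  fun_prop

/-- Counting bound: a learner with `M` bits of memory succeeds with probability at most
`2 ^ M` times the largest uniform measure of a cap of angular radius `ε`. -/
theorem successProb_le (L : Learner d M) (T : ℕ) (ε : ℝ) (p : ℝ≥0∞)
    (hp : ∀ v : Sph d,
      uniformSphere d {s : Sph d | InnerProductGeometry.angle (v : Vec d) (s : Vec d) ≤ ε} ≤ p) :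
    L.successProb T ε ≤ 2 ^ M * p := by
  have := L.out_markov
  set B : Set (Sph d × Sph d) :=
    {q | InnerProductGeometry.angle (q.2 : Vec d) (q.1 : Vec d) ≤ ε} with hB
  have hBm : MeasurableSet B := measurableSet_anglePairs d ε
  have hgood : ∀ s : Sph d, goodOutputs d ε s = Prod.mk s ⁻¹' B := fun s => rfl
  have hgm : ∀ s : Sph d, MeasurableSet (goodOutputs d ε s) := by
    intro s
    rw [hgood]
    exact measurable_prodMk_left hBm
  have h1 : L.successProb T ε ≤ ∫⁻ s : Sph d, ∑ j, L.out j (goodOutputs d ε s)
      ∂(uniformSphere d) := by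
    unfold Learner.successProb
    apply lintegral_mono
    intro s
    calc ∫⁻ X : ℕ → Vec d,
          L.outputLaw T (fun t => (X t, inner ℝ (X t) (s : Vec d))) (goodOutputs d ε s)
          ∂(Measure.infinitePi (fun _ : ℕ => stdGaussian (Vec d)))
        ≤ ∫⁻ _X : ℕ → Vec d, ∑ j, L.out j (goodOutputs d ε s)
          ∂(Measure.infinitePi (fun _ : ℕ => stdGaussian (Vec d))) :=
          lintegral_mono (fun X => L.outputLaw_le T _ _ (hgm s))
      _ = ∑ j, L.out j (goodOutputs d ε s) := by
          rw [lintegral_const, measure_univ, mul_one]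
  have hmeas : ∀ j : Fin (2 ^ M), Measurable (fun s : Sph d => L.out j (goodOutputs d ε s)) := by
    intro j
    simp only [hgood]
    exact measurable_measure_prodMk_left hBm
  have h2 : ∫⁻ s : Sph d, ∑ j, L.out j (goodOutputs d ε s) ∂(uniformSphere d)
      = ∑ j, ∫⁻ s : Sph d, L.out j (goodOutputs d ε s) ∂(uniformSphere d) :=
    lintegral_finsetSum _ (fun j _ => hmeas j)
  have h3 : ∀ j : Fin (2 ^ M),
      ∫⁻ s : Sph d, L.out j (goodOutputs d ε s) ∂(uniformSphere d) ≤ p := by
    intro j
    simp only [hgood]
    rw [← Measure.prod_apply hBm, Measure.prod_apply_symm hBm]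
    calc ∫⁻ v : Sph d, uniformSphere d ((fun s => (s, v)) ⁻¹' B) ∂(L.out j)
        ≤ ∫⁻ _v : Sph d, p ∂(L.out j) := lintegral_mono (fun v => hp v)
      _ = p := by rw [lintegral_const, measure_univ, mul_one]
  calc L.successProb T ε ≤ ∑ j, ∫⁻ s : Sph d, L.out j (goodOutputs d ε s) ∂(uniformSphere d) :=
        h2 ▸ h1
    _ ≤ ∑ _j : Fin (2 ^ M), p := Finset.sum_le_sum (fun j _ => h3 j)
    _ = 2 ^ M * p := by
        rw [Finset.sum_const, Finset.card_univ, Fintype.card_fin, nsmul_eq_mul]
        push_cast
        rfl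

end Vale.Agent.Lib.P309
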