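import Vale.Agent.Lib.P309.Counting

namespace Vale.Agent.Lib.P309

open MeasureTheory ProbabilityTheory
open scoped ENNReal

variable {d M : ℕ}

/-- The set of (state, has-stopped flag) pairs of a learner with `M` bits. -/
abbrev St (M : ℕ) : Type := Fin (2 ^ M) × Bool

/-- Law of the (state, flag) pair after `k` further steps, started at index `t` in the
pair `p`, on the data sequence `z` (only `z t, …, z (t + k - 1)` are read). -/
noncomputable def Learner.contFrom (L : Learner d M) (t : ℕ) (z : ℕ → Vec d × ℝ) :
    ℕ → St M → Measure (St M)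
  | 0, p => Measure.dirac p
  | k + 1, p => (L.contFrom t z k p).bind
      (fun p' => if p'.2 then Measure.dirac p' else L.step (t + k) (p'.1, z (t + k)))

/-- Law of the output when the learner is restarted at index `t` in the pair `p` and runs for
`k` further steps. -/
noncomputable def Learner.decLaw (L : Learner d M) (t k : ℕ) (z : ℕ → Vec d × ℝ) (p : St M) :
    Measure (Sph d) :=
  ((L.contFrom t z k p).map Prod.fst).bind L.out

/-- A bind over the finite discrete type of pairs is a finite sum. -/
lemma bind_apply_St {β : Type*} [MeasurableSpace β] (ν : Measure (St M))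
    (f : St M → Measure β) (A : Set β) (hA : MeasurableSet A) :
    ν.bind f A = ∑ p : St M, ν {p} * f p A := by
  rw [Measure.bind_apply hA (measurable_of_countable _).aemeasurable, lintegral_fintype]
  exact Finset.sum_congr rfl (fun p _ => mul_comm _ _)

/-- The one-step transition used by `runOn` and `contFrom`. -/
noncomputable def Learner.stepF (L : Learner d M) (i : ℕ) (z : ℕ → Vec d × ℝ) (p : St M) :
    Measure (St M) :=
  if p.2 then Measure.dirac p else L.step i (p.1, z i)

lemma Learner.stepF_isProb (L : Learner d M) (i : ℕ) (z : ℕ → Vec d × ℝ) (p : St M) :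
    IsProbabilityMeasure (L.stepF i z p) := by
  have := L.step_markov i
  unfold Learner.stepF
  split_ifs <;> infer_instance

lemma Learner.runOn_succ (L : Learner d M) (z : ℕ → Vec d × ℝ) (t : ℕ) :
    L.runOn z (t + 1) = (L.runOn z t).bind (L.stepF t z) := rfl

lemma Learner.contFrom_succ (L : Learner d M) (t : ℕ) (z : ℕ → Vec d × ℝ) (k : ℕ) (p : St M) :
    L.contFrom t z (k + 1) p = (L.contFrom t z k p).bind (L.stepF (t + k) z) := rfl

lemma Learner.runOn_add (L : Learner d M) (z : ℕ → Vec d × ℝ) (t k : ℕ) :
    L.runOn z (t + k) = (L.runOn z t).bind (L.contFrom t z k) := by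
  induction k with
  | zero =>
    have h : L.contFrom t z 0 = Measure.dirac := by
      funext p
      rfl
    rw [h, Measure.bind_dirac]
    rfl
  | succ k ih =>
    have h : L.contFrom t z (k + 1) = fun p => (L.contFrom t z k p).bind (L.stepF (t + k) z) := by
      funext p
      rfl
    rw [← add_assoc, Learner.runOn_succ, ih, h,
      Measure.bind_bind (measurable_of_countable _).aemeasurable
        (measurable_of_countable _).aemeasurable]

lemma Learner.contFrom_isProb (L : Learner d M) (t : ℕ) (z : ℕ → Vec d × ℝ) (k : ℕ) (p : St M) :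
    IsProbabilityMeasure (L.contFrom t z k p) := by
  induction k with
  | zero =>
    change IsProbabilityMeasure (Measure.dirac p)
    infer_instance
  | succ k ih =>
    have := ih
    constructor
    rw [Learner.contFrom_succ, bind_apply_St _ _ _ MeasurableSet.univ]
    have h1 : ∀ q : St M, L.stepF (t + k) z q Set.univ = 1 := by
      intro q
      have := L.stepF_isProb (t + k) z q
      exact measure_univ
    simp only [h1, mul_one]
    rw [sum_measure_singleton, Finset.coe_univ]
    exact measure_univ

/-- The law of the output as a finite sum over the final pair. -/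
lemma outLaw_apply (L : Learner d M) (m : Measure (St M)) (A : Set (Sph d))
    (hA : MeasurableSet A) :
    ((m.map Prod.fst).bind L.out) A = ∑ q : St M, m {q} * L.out q.1 A := by
  rw [Measure.bind_apply hA L.out.measurable.aemeasurable,
    lintegral_map (L.out.measurable_coe hA) measurable_fst, lintegral_fintype]
  exact Finset.sum_congr rfl (fun q _ => mul_comm _ _)

theorem Learner.outputLaw_cut (L : Learner d M) (t k : ℕ) (z : ℕ → Vec d × ℝ)
    (A : Set (Sph d)) (hA : MeasurableSet A) :
    L.outputLaw (t + k) z A = ∑ p : St M, L.runOn z t {p} * L.decLaw t k z p A := by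
  unfold Learner.outputLaw Learner.decLaw
  rw [outLaw_apply L _ A hA, L.runOn_add z t k]
  have h1 : ∀ q : St M, ((L.runOn z t).bind (L.contFrom t z k)) {q}
      = ∑ p : St M, L.runOn z t {p} * L.contFrom t z k p {q} :=
    fun q => bind_apply_St _ _ _ (MeasurableSet.singleton q)
  simp only [h1, outLaw_apply L _ A hA, Finset.sum_mul, Finset.mul_sum]
  rw [Finset.sum_comm]
  refine Finset.sum_congr rfl (fun p _ => Finset.sum_congr rfl (fun q _ => ?_))
  rw [mul_assoc]

theorem Learner.runOn_congr (L : Learner d M) {z z' : ℕ → Vec d × ℝ} (t : ℕ)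
    (h : ∀ i, i < t → z i = z' i) : L.runOn z t = L.runOn z' t := by
  induction t with
  | zero => rfl
  | succ t ih =>
    rw [Learner.runOn_succ, Learner.runOn_succ, ih (fun i hi => h i (Nat.lt_succ_of_lt hi))]
    congr 1
    funext p
    unfold Learner.stepF
    rw [h t (Nat.lt_succ_self t)]

lemma Learner.contFrom_congr (L : Learner d M) {z z' : ℕ → Vec d × ℝ} (t k : ℕ) (p : St M)
    (h : ∀ i, t ≤ i → i < t + k → z i = z' i) : L.contFrom t z k p = L.contFrom t z' k p := by
  induction k with
  | zero => rfl
  | succ k ih =>
    rw [Learner.contFrom_succ, Learner.contFrom_succ,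
      ih (fun i h1 h2 => h i h1 (by omega))]
    congr 1
    funext q
    unfold Learner.stepF
    rw [h (t + k) (by omega) (by omega)]

theorem Learner.decLaw_congr (L : Learner d M) {z z' : ℕ → Vec d × ℝ} (t k : ℕ) (p : St M)
    (h : ∀ i, t ≤ i → i < t + k → z i = z' i) : L.decLaw t k z p = L.decLaw t k z' p := by
  unfold Learner.decLaw
  rw [L.contFrom_congr t k p h]

theorem Learner.sum_runOn_singleton (L : Learner d M) (z : ℕ → Vec d × ℝ) (t : ℕ) :
    ∑ p : St M, L.runOn z t {p} = 1 := by
  have := L.runOn_isProb z t
  rw [sum_measure_singleton, Finset.coe_univ]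
  exact measure_univ

theorem Learner.decLaw_isProb (L : Learner d M) (t k : ℕ) (z : ℕ → Vec d × ℝ) (p : St M) :
    IsProbabilityMeasure (L.decLaw t k z p) := by
  have := L.contFrom_isProb t z k p
  have := L.out_markov
  constructor
  unfold Learner.decLaw
  rw [outLaw_apply L _ _ MeasurableSet.univ]
  simp only [measure_univ, mul_one]
  rw [sum_measure_singleton, Finset.coe_univ]
  exact measure_univ

lemma Learner.measurable_stepF (L : Learner d M) (i : ℕ) (q p : St M) :
    Measurable (fun z : ℕ → Vec d × ℝ => L.stepF i z q {p}) := by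
  unfold Learner.stepF
  by_cases hq : q.2
  · simp only [hq, if_true]
    exact measurable_const
  · simp only [hq]
    have h1 : Measurable (fun a : Fin (2 ^ M) × (Vec d × ℝ) => L.step i a {p}) :=
      (L.step i).measurable_coe (MeasurableSet.singleton p)
    have h2 : Measurable (fun z : ℕ → Vec d × ℝ => (q.1, z i)) :=
      measurable_const.prodMk (measurable_pi_apply i)
    exact h1.comp h2

theorem Learner.measurable_runOn (L : Learner d M) (t : ℕ) (p : St M) :
    Measurable (fun z : ℕ → Vec d × ℝ => L.runOn z t {p}) := by
  induction t generalizing p with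
  | zero =>
    have h : ∀ z : ℕ → Vec d × ℝ, L.runOn z 0 {p} = L.init.map (fun j => (j, false)) {p} :=
      fun z => rfl
    simp only [h]
    exact measurable_const
  | succ t ih =>
    have h : ∀ z : ℕ → Vec d × ℝ, L.runOn z (t + 1) {p}
        = ∑ q : St M, L.runOn z t {q} * L.stepF t z q {p} := by
      intro z
      rw [Learner.runOn_succ, bind_apply_St _ _ _ (MeasurableSet.singleton p)]
    simp only [h]
    exact Finset.measurable_sum _ (fun q _ => (ih q).mul (L.measurable_stepF t q p))

lemma Learner.measurable_contFrom (L : Learner d M) (t k : ℕ) (p p' : St M) :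
    Measurable (fun z : ℕ → Vec d × ℝ => L.contFrom t z k p {p'}) := by
  induction k generalizing p' with
  | zero =>
    have h : ∀ z : ℕ → Vec d × ℝ, L.contFrom t z 0 p {p'} = Measure.dirac p {p'} :=
      fun z => rfl
    simp only [h]
    exact measurable_const
  | succ k ih =>
    have h : ∀ z : ℕ → Vec d × ℝ, L.contFrom t z (k + 1) p {p'}
        = ∑ q : St M, L.contFrom t z k p {q} * L.stepF (t + k) z q {p'} := by
      intro z
      rw [Learner.contFrom_succ, bind_apply_St _ _ _ (MeasurableSet.singleton p')]
    simp only [h]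
    exact Finset.measurable_sum _ (fun q _ => (ih q).mul (L.measurable_stepF (t + k) q p'))

theorem Learner.measurable_decLaw (L : Learner d M) (t k : ℕ) (p : St M)
    (B : Set (Sph d × Sph d)) (hB : MeasurableSet B) :
    Measurable (fun q : (ℕ → Vec d × ℝ) × Sph d => L.decLaw t k q.1 p (Prod.mk q.2 ⁻¹' B)) := by
  have := L.out_markov
  have h : ∀ q : (ℕ → Vec d × ℝ) × Sph d, L.decLaw t k q.1 p (Prod.mk q.2 ⁻¹' B)
      = ∑ p' : St M, L.contFrom t q.1 k p {p'} * L.out p'.1 (Prod.mk q.2 ⁻¹' B) := by
    intro q
    unfold Learner.decLaw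
    rw [outLaw_apply L _ _ (measurable_prodMk_left hB)]
  simp only [h]
  refine Finset.measurable_sum _ (fun p' _ => ?_)
  refine ((L.measurable_contFrom t k p p').comp measurable_fst).mul ?_
  have h2 : Measurable (fun s : Sph d => L.out p'.1 (Prod.mk s ⁻¹' B)) :=
    measurable_measure_prodMk_left hB
  exact h2.comp measurable_snd

end Vale.Agent.Lib.P309
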