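import Mathlib

namespace Vale.Agent.Lib.P309

open MeasureTheory ProbabilityTheory
open scoped ENNReal

/-- Concatenation of a finite block of length `n` and an infinite sequence. -/
def appendX {E : Type*} (n : ℕ) (X' : Fin n → E) (X'' : ℕ → E) : ℕ → E :=
  fun i => if h : i < n then X' ⟨i, h⟩ else X'' (i - n)

theorem measurable_appendX {E : Type*} [MeasurableSpace E] (n : ℕ) :
    Measurable (fun p : (Fin n → E) × (ℕ → E) => appendX n p.1 p.2) := by
  rw [measurable_pi_iff]
  intro i
  unfold appendX
  by_cases h : i < n
  · simp only [h, dif_pos]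
    exact (measurable_pi_apply _).comp measurable_fst
  · simp only [h, dif_neg, not_false_iff]
    exact (measurable_pi_apply _).comp measurable_snd

/-- The preimage of a box under concatenation is a product of two boxes. -/
theorem appendX_preimage_pi {E : Type*} (n : ℕ) (s : Finset ℕ) (t : ℕ → Set E) :
    (fun p : (Fin n → E) × (ℕ → E) => appendX n p.1 p.2) ⁻¹' (Set.pi (s : Set ℕ) t)
      = (Set.pi Set.univ (fun j : Fin n => if j.1 ∈ s then t j.1 else Set.univ)) ×ˢ
        (Set.pi (((s.filter (fun i => n ≤ i)).image (fun i => i - n) : Finset ℕ) : Set ℕ)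
          (fun k => t (k + n))) := by
  ext ⟨X', X''⟩
  simp only [Set.mem_preimage, Set.mem_pi, Set.mem_prod, Finset.mem_coe, Set.mem_univ,
    forall_true_left]
  constructor
  · intro h
    refine ⟨?_, ?_⟩
    · intro j
      by_cases hj : j.1 ∈ s
      · have h1 := h j.1 hj
        unfold appendX at h1
        rw [dif_pos j.2] at h1
        simpa [hj] using h1
      · simp [hj]
    · intro k hk
      obtain ⟨i, hi, rfl⟩ := Finset.mem_image.1 hk
      have hi' := Finset.mem_filter.1 hi
      have h1 := h i hi'.1
      unfold appendX at h1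
      rw [dif_neg (not_lt.2 hi'.2)] at h1
      rw [Nat.sub_add_cancel hi'.2]
      exact h1
  · rintro ⟨h1, h2⟩ i hi
    unfold appendX
    by_cases h : i < n
    · rw [dif_pos h]
      have h3 := h1 ⟨i, h⟩
      simpa [hi] using h3
    · rw [dif_neg h]
      have h3 := h2 (i - n)
        (Finset.mem_image.2 ⟨i, Finset.mem_filter.2 ⟨hi, not_lt.1 h⟩, rfl⟩)
      rw [Nat.sub_add_cancel (not_lt.1 h)] at h3
      exact h3

/-- An infinite i.i.d. sequence is the concatenation of an i.i.d. block of length `n` and an
independent infinite i.i.d. sequence. -/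
theorem infinitePi_eq_map_appendX {E : Type*} [MeasurableSpace E] (μ : Measure E)
    [IsProbabilityMeasure μ] (n : ℕ) :
    Measure.infinitePi (fun _ : ℕ => μ)
      = ((Measure.pi (fun _ : Fin n => μ)).prod (Measure.infinitePi (fun _ : ℕ => μ))).map
          (fun p => appendX n p.1 p.2) := by
  classical
  symm
  apply Measure.eq_infinitePi
  intro s t ht
  rw [Measure.map_apply (measurable_appendX n)
    (MeasurableSet.pi s.countable_toSet (fun i _ => ht i)), appendX_preimage_pi,
    Measure.prod_prod, Measure.pi_pi, Measure.infinitePi_pi _ (fun k _ => ht (k + n))]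
  have e1 : ∏ j : Fin n, μ (if j.1 ∈ s then t j.1 else Set.univ)
      = ∏ i ∈ s.filter (fun i => i < n), μ (t i) := by
    have h0 : ∀ j : Fin n, μ (if j.1 ∈ s then t j.1 else Set.univ)
        = (fun i : ℕ => if i ∈ s then μ (t i) else 1) j.1 := by
      intro j
      by_cases hj : j.1 ∈ s
      · simp [hj]
      · simp [hj]
    rw [Finset.prod_congr rfl (fun j _ => h0 j),
      Fin.prod_univ_eq_prod_range (fun i : ℕ => if i ∈ s then μ (t i) else 1) n,
      ← Finset.prod_filter]
    refine Finset.prod_congr ?_ (fun _ _ => rfl)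
    ext i
    simp only [Finset.mem_filter, Finset.mem_range]
    exact and_comm
  have e2 : ∏ k ∈ (s.filter (fun i => n ≤ i)).image (fun i => i - n), μ (t (k + n))
      = ∏ i ∈ s.filter (fun i => ¬ i < n), μ (t i) := by
    rw [Finset.prod_image]
    · have hf : s.filter (fun i => n ≤ i) = s.filter (fun i => ¬ i < n) := by
        ext i
        simp only [Finset.mem_filter, not_lt]
      rw [hf]
      refine Finset.prod_congr rfl ?_
      intro i hi
      rw [Nat.sub_add_cancel (not_lt.1 (Finset.mem_filter.1 hi).2)]
    · intro i hi j hj hij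
      have hi' := (Finset.mem_filter.1 hi).2
      have hj' := (Finset.mem_filter.1 hj).2
      simp only at hij
      omega
  rw [e1, e2, Finset.prod_filter_mul_prod_filter_not]

end Vale.Agent.Lib.P309
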