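import Mathlib

namespace Vale.Agent.Lib.P309

open MeasureTheory ProbabilityTheory
open scoped ENNReal

/-- The Euclidean space `ℝ^d`. -/
abbrev Vec (d : ℕ) : Type := EuclideanSpace ℝ (Fin d)

/-- The unit sphere `S^{d-1}` of `ℝ^d`, as a type. -/
abbrev Sph (d : ℕ) : Type := Metric.sphere (0 : Vec d) 1

/-- A streaming learner with `M` bits of memory in dimension `d`.
Its persistent state is an element of `Fin (2 ^ M)`.  At index `t` it reads the pair
`(x, y)` and moves, by a Markov kernel that may depend on `t`, from its current state to a new
state together with a decision to stop (`true`) or to go on (`false`).  When it has stopped, or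
when the horizon is reached, it outputs a point of the unit sphere drawn from a Markov kernel
applied to its final state.  The initial state is random, with law `init`. -/
structure Learner (d M : ℕ) where
  init : Measure (Fin (2 ^ M))
  init_prob : IsProbabilityMeasure init
  step : ℕ → Kernel (Fin (2 ^ M) × (Vec d × ℝ)) (Fin (2 ^ M) × Bool)
  step_markov : ∀ t, IsMarkovKernel (step t)
  out : Kernel (Fin (2 ^ M)) (Sph d)
  out_markov : IsMarkovKernel out

/-- Law of (state, has-stopped flag) after the learner has read the first `t` pairs of the
data sequence `z`.  Once the flag is `true` the state is frozen. -/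
noncomputable def Learner.runOn {d M : ℕ} (L : Learner d M) (z : ℕ → Vec d × ℝ) :
    ℕ → Measure (Fin (2 ^ M) × Bool)
  | 0 => L.init.map (fun j => (j, false))
  | t + 1 => (L.runOn z t).bind
      (fun p => if p.2 then Measure.dirac p else L.step t (p.1, z t))

/-- Law of the output of the learner with horizon `T` on the data sequence `z`. -/
noncomputable def Learner.outputLaw {d M : ℕ} (L : Learner d M) (T : ℕ) (z : ℕ → Vec d × ℝ) :
    Measure (Sph d) :=
  ((L.runOn z T).map Prod.fst).bind L.out

/-- The uniform probability measure on the unit sphere: normalized surface measure. -/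
noncomputable def uniformSphere (d : ℕ) : Measure (Sph d) :=
  ((volume : Measure (Vec d)).toSphere Set.univ)⁻¹ • (volume : Measure (Vec d)).toSphere

/-- The set of outputs within angle `ε` of the signal `s`. -/
def goodOutputs (d : ℕ) (ε : ℝ) (s : Sph d) : Set (Sph d) :=
  {v | InnerProductGeometry.angle (v : Vec d) (s : Vec d) ≤ ε}

/-- Probability that the learner with horizon `T` outputs a point within angle `ε` of the
signal, when the signal `s` is uniform on the sphere, the rows `X t` are independent standard
Gaussian vectors, independent of the signal, and the labels are exact: `y_t = inner ℝ (X t) s`. -/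
noncomputable def Learner.successProb {d M : ℕ} (L : Learner d M) (T : ℕ) (ε : ℝ) : ℝ≥0∞ :=
  ∫⁻ s : Sph d, ∫⁻ X : ℕ → Vec d,
      L.outputLaw T (fun t => (X t, inner ℝ (X t) (s : Vec d))) (goodOutputs d ε s)
    ∂(Measure.infinitePi (fun _ : ℕ => stdGaussian (Vec d))) ∂(uniformSphere d)

end Vale.Agent.Lib.P309
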