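import Vale.Agent.Lib.P309.Cut
import Vale.Agent.Lib.P309.Split

namespace Vale.Agent.Lib.P309

open MeasureTheory ProbabilityTheory Metric Set
open scoped ENNReal

variable {d M : ℕ}

/-- The data sequence produced by the rows `X` and the signal `s`. -/
noncomputable def zOf (X : ℕ → Vec d) (s : Sph d) : ℕ → Vec d × ℝ :=
  fun i => (X i, inner ℝ (X i) (s : Vec d))

lemma measurable_zOf : Measurable (fun q : (ℕ → Vec d) × Sph d => zOf q.1 q.2) := by
  refine measurable_pi_lambda _ (fun i => ?_)
  have h1 : Measurable (fun q : (ℕ → Vec d) × Sph d => q.1 i) :=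
    (measurable_pi_apply i).comp measurable_fst
  have h2 : Measurable (fun q : (ℕ → Vec d) × Sph d => ((q.2 : Sph d) : Vec d)) :=
    measurable_subtype_coe.comp measurable_snd
  exact h1.prodMk (h1.inner h2)

lemma successProb_eq (L : Learner d M) (T : ℕ) (ε : ℝ) :
    L.successProb T ε = ∫⁻ s, ∫⁻ X, L.outputLaw T (zOf X s) (goodOutputs d ε s)
      ∂(Measure.infinitePi (fun _ : ℕ => stdGaussian (Vec d))) ∂(uniformSphere d) := rfl

/-- The pairs `(s, v)` with `v` within angle `ε` of `s`. -/
def goodPairs (d : ℕ) (ε : ℝ) : Set (Sph d × Sph d) :=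
  {q | InnerProductGeometry.angle (q.2 : Vec d) (q.1 : Vec d) ≤ ε}

lemma measurableSet_goodPairs (d : ℕ) (ε : ℝ) : MeasurableSet (goodPairs d ε) :=
  measurableSet_anglePairs d ε

lemma goodOutputs_eq (d : ℕ) (ε : ℝ) (s : Sph d) :
    goodOutputs d ε s = Prod.mk s ⁻¹' goodPairs d ε := rfl

/-- Weight of the memory pair `p` after the first `n` samples `X'` of the signal `s`. -/
noncomputable def muW (L : Learner d M) (n : ℕ) (p : St M) (X' : Fin n → Vec d) (s : Sph d) :
    ℝ≥0∞ :=
  L.runOn (zOf (appendX n X' (fun _ => 0)) s) n {p}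

/-- Probability that the learner, restarted in the pair `p` after `n` samples and reading the
`k` further samples `X''` of the signal `s`, outputs a point within angle `ε` of `s`. -/
noncomputable def phiW (L : Learner d M) (n k : ℕ) (ε : ℝ) (p : St M) (X'' : ℕ → Vec d)
    (s : Sph d) : ℝ≥0∞ :=
  L.decLaw n k (zOf (appendX n (fun _ => 0) X'') s) p (Prod.mk s ⁻¹' goodPairs d ε)

lemma measurable_muW (L : Learner d M) (n : ℕ) (p : St M) :
    Measurable (fun q : (Fin n → Vec d) × Sph d => muW L n p q.1 q.2) := by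
  have h1 : Measurable (fun q : (Fin n → Vec d) × Sph d =>
      ((appendX n q.1 (fun _ => (0 : Vec d)), q.2) : (ℕ → Vec d) × Sph d)) := by
    refine Measurable.prodMk ?_ measurable_snd
    have h := measurable_appendX (E := Vec d) n
    have h' : Measurable (fun q : (Fin n → Vec d) × Sph d =>
        ((q.1, fun _ => (0 : Vec d)) : (Fin n → Vec d) × (ℕ → Vec d))) :=
      measurable_fst.prodMk measurable_const
    exact h.comp h'
  exact (L.measurable_runOn n p).comp (measurable_zOf.comp h1)

lemma measurable_phiW (L : Learner d M) (n k : ℕ) (ε : ℝ) (p : St M) :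
    Measurable (fun q : (ℕ → Vec d) × Sph d => phiW L n k ε p q.1 q.2) := by
  have h1 : Measurable (fun q : (ℕ → Vec d) × Sph d =>
      ((appendX n (fun _ => (0 : Vec d)) q.1, q.2) : (ℕ → Vec d) × Sph d)) := by
    refine Measurable.prodMk ?_ measurable_snd
    have h := measurable_appendX (E := Vec d) n
    have h' : Measurable (fun q : (ℕ → Vec d) × Sph d =>
        (((fun _ => (0 : Vec d)), q.1) : (Fin n → Vec d) × (ℕ → Vec d))) :=
      measurable_const.prodMk measurable_fst
    exact h.comp h'
  have h2 : Measurable (fun q : (ℕ → Vec d) × Sph d =>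
      ((zOf (appendX n (fun _ => (0 : Vec d)) q.1) q.2, q.2) : (ℕ → Vec d × ℝ) × Sph d)) :=
    (measurable_zOf.comp h1).prodMk measurable_snd
  have h3 := (L.measurable_decLaw n k p (goodPairs d ε) (measurableSet_goodPairs d ε)).comp h2
  exact h3

lemma phiW_le_one (L : Learner d M) (n k : ℕ) (ε : ℝ) (p : St M) (X'' : ℕ → Vec d)
    (s : Sph d) : phiW L n k ε p X'' s ≤ 1 := by
  have := L.decLaw_isProb n k (zOf (appendX n (fun _ => 0) X'') s) p
  exact prob_le_one

lemma outputLaw_appendX (L : Learner d M) (n k : ℕ) (ε : ℝ) (X' : Fin n → Vec d)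
    (X'' : ℕ → Vec d) (s : Sph d) :
    L.outputLaw (n + k) (zOf (appendX n X' X'') s) (Prod.mk s ⁻¹' goodPairs d ε)
      = ∑ p : St M, muW L n p X' s * phiW L n k ε p X'' s := by
  have hA : MeasurableSet (Prod.mk s ⁻¹' goodPairs d ε) :=
    measurable_prodMk_left (measurableSet_goodPairs d ε)
  rw [L.outputLaw_cut n k (zOf (appendX n X' X'') s) (Prod.mk s ⁻¹' goodPairs d ε) hA]
  refine Finset.sum_congr rfl (fun p _ => ?_)
  have h1 : L.runOn (zOf (appendX n X' X'') s) n = L.runOn (zOf (appendX n X' (fun _ => 0)) s) n := by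
    apply L.runOn_congr
    intro i hi
    simp [zOf, appendX, hi]
  have h2 : L.decLaw n k (zOf (appendX n X' X'') s) p
      = L.decLaw n k (zOf (appendX n (fun _ => 0) X'') s) p := by
    apply L.decLaw_congr
    intro i hi _
    have : ¬ i < n := by omega
    simp [zOf, appendX, this]
  rw [muW, phiW, h1, h2]

lemma measurable_zOf_left (s : Sph d) : Measurable (fun X : ℕ → Vec d => zOf X s) := by
  have h0 : Measurable (fun X : ℕ → Vec d => ((X, s) : (ℕ → Vec d) × Sph d)) :=
    measurable_id.prodMk measurable_const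
  exact measurable_zOf.comp h0

lemma measurable_outputLaw_zOf (L : Learner d M) (n k : ℕ) (ε : ℝ) (s : Sph d) :
    Measurable (fun X : ℕ → Vec d =>
      L.outputLaw (n + k) (zOf X s) (Prod.mk s ⁻¹' goodPairs d ε)) := by
  have hA : MeasurableSet (Prod.mk s ⁻¹' goodPairs d ε) :=
    measurable_prodMk_left (measurableSet_goodPairs d ε)
  have h2 : (fun X : ℕ → Vec d => L.outputLaw (n + k) (zOf X s) (Prod.mk s ⁻¹' goodPairs d ε))
      = fun X => ∑ p : St M, L.runOn (zOf X s) n {p}
        * L.decLaw n k (zOf X s) p (Prod.mk s ⁻¹' goodPairs d ε) := by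
    funext X
    exact L.outputLaw_cut n k (zOf X s) (Prod.mk s ⁻¹' goodPairs d ε) hA
  rw [h2]
  have h3 : ∀ p : St M, Measurable (fun X : ℕ → Vec d => L.runOn (zOf X s) n {p}) := fun p =>
    (L.measurable_runOn n p).comp (measurable_zOf_left s)
  have h4 : ∀ p : St M, Measurable (fun X : ℕ → Vec d =>
      L.decLaw n k (zOf X s) p (Prod.mk s ⁻¹' goodPairs d ε)) := by
    intro p
    have h5 : Measurable (fun X : ℕ → Vec d => ((zOf X s, s) : (ℕ → Vec d × ℝ) × Sph d)) :=
      (measurable_zOf_left s).prodMk measurable_const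
    have h6 := (L.measurable_decLaw n k p (goodPairs d ε) (measurableSet_goodPairs d ε)).comp h5
    exact h6
  apply Finset.measurable_sum
  intro p _
  exact (h3 p).mul (h4 p)

/-- The success probability as an integral over the signal, the first `n` rows and the
later rows. -/
theorem successProb_split (L : Learner d M) (n k : ℕ) (ε : ℝ) :
    L.successProb (n + k) ε = ∫⁻ s, ∫⁻ X', ∫⁻ X'',
        ∑ p : St M, muW L n p X' s * phiW L n k ε p X'' s
      ∂(Measure.infinitePi (fun _ : ℕ => stdGaussian (Vec d)))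
      ∂(Measure.pi (fun _ : Fin n => stdGaussian (Vec d))) ∂(uniformSphere d) := by
  rw [successProb_eq]
  refine lintegral_congr (fun s => ?_)
  rw [goodOutputs_eq]
  have hmeas := measurable_outputLaw_zOf L n k ε s
  have hsplit := infinitePi_eq_map_appendX (stdGaussian (Vec d)) n
  have hap : Measurable (fun q : (Fin n → Vec d) × (ℕ → Vec d) => appendX n q.1 q.2) :=
    measurable_appendX n
  calc ∫⁻ X, L.outputLaw (n + k) (zOf X s) (Prod.mk s ⁻¹' goodPairs d ε)
        ∂(Measure.infinitePi (fun _ : ℕ => stdGaussian (Vec d)))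
      = ∫⁻ X, L.outputLaw (n + k) (zOf X s) (Prod.mk s ⁻¹' goodPairs d ε)
        ∂(((Measure.pi (fun _ : Fin n => stdGaussian (Vec d))).prod
          (Measure.infinitePi (fun _ : ℕ => stdGaussian (Vec d)))).map
            (fun q => appendX n q.1 q.2)) := by rw [← hsplit]
    _ = ∫⁻ q, L.outputLaw (n + k) (zOf (appendX n q.1 q.2) s) (Prod.mk s ⁻¹' goodPairs d ε)
        ∂((Measure.pi (fun _ : Fin n => stdGaussian (Vec d))).prod
          (Measure.infinitePi (fun _ : ℕ => stdGaussian (Vec d)))) :=
        lintegral_map hmeas hap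
    _ = ∫⁻ X', ∫⁻ X'', L.outputLaw (n + k) (zOf (appendX n X' X'') s)
          (Prod.mk s ⁻¹' goodPairs d ε)
        ∂(Measure.infinitePi (fun _ : ℕ => stdGaussian (Vec d)))
        ∂(Measure.pi (fun _ : Fin n => stdGaussian (Vec d))) :=
        lintegral_prod _ (hmeas.comp hap).aemeasurable
    _ = _ := by
        refine lintegral_congr (fun X' => lintegral_congr (fun X'' => ?_))
        exact outputLaw_appendX L n k ε X' X'' s

end Vale.Agent.Lib.P309
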